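import Vale.Agent.P146.R2.H952.XDef

/-!
# P146: the exponent 12/5, row Q (norm and cost of the coefficients)
-/

namespace Vale.Agent.P146.R2.H910.X

open Vale.Agent.P146.R2.H952.X (nrm cst StQ)

theorem pow_le_three {L k : ℕ} (hL : 0 < L) (hk : k ≤ L) : (1 + 1 / (L : ℝ)) ^ k ≤ 3 := by
  have hL' : (0 : ℝ) < L := by exact_mod_cast hL
  have h1 : 1 + 1 / (L : ℝ) ≤ Real.exp (1 / L) := by
    have := Real.add_one_le_exp (1 / (L : ℝ))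
    linarith
  have h2 : (1 + 1 / (L : ℝ)) ^ k ≤ Real.exp (1 / L) ^ k :=
    pow_le_pow_left₀ (by positivity) h1 k
  rw [← Real.exp_nat_mul] at h2
  have h3 : (k : ℝ) * (1 / L) ≤ 1 := by
    rw [mul_one_div, div_le_one hL']
    exact_mod_cast hk
  have h4 := Real.exp_le_exp.2 h3
  have h5 := Real.exp_one_lt_d9
  linarith

theorem sum_lin (L : ℕ) : ∑ k ∈ Finset.range L, (2 * (k : ℝ) + 3) = (L : ℝ) ^ 2 + 2 * L := by
  induction L with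
  | zero => simp
  | succ n ih =>
    rw [Finset.sum_range_succ, ih]
    push_cast
    ring

theorem cst_le {L : ℕ} (hL : 2 ≤ L) {δ : ℝ} (hδ : 0 ≤ δ) {c : ℕ → ℝ}
    (hc : ∀ k, 0 ≤ c k ∧ c k ≤ 2 * (δ / L ^ 4)) : cst L c ≤ 3 * δ ^ 2 / L ^ 6 := by
  have hL' : (2 : ℝ) ≤ L := by exact_mod_cast hL
  have h0 : 0 ≤ 2 * (δ / (L : ℝ) ^ 4) := by positivity
  have h1 : ∑ k ∈ Finset.range L, (2 * (k : ℝ) + 3) * c k ^ 2 ≤
      ((L : ℝ) ^ 2 + 2 * L) * (2 * (δ / (L : ℝ) ^ 4)) ^ 2 := by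
    rw [← sum_lin, Finset.sum_mul]
    refine Finset.sum_le_sum fun k _ => ?_
    refine mul_le_mul_of_nonneg_left ?_ (by positivity)
    exact pow_le_pow_left₀ (hc k).1 (hc k).2 2
  unfold cst
  have h2 : 1 / 4 * (((L : ℝ) ^ 2 + 2 * L) * (2 * (δ / (L : ℝ) ^ 4)) ^ 2) =
      ((L : ℝ) ^ 2 + 2 * L) * δ ^ 2 / L ^ 8 := by
    field_simp
    ring
  have h3 : ((L : ℝ) ^ 2 + 2 * L) * δ ^ 2 / L ^ 8 ≤ 3 * δ ^ 2 / L ^ 6 := by
    rw [div_le_div_iff₀ (by positivity) (by positivity)]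
    have h4 : (L : ℝ) ^ 2 + 2 * L ≤ 3 * L ^ 2 := by nlinarith
    have h5 : 0 ≤ δ ^ 2 * (L : ℝ) ^ 6 := by positivity
    have h6 := mul_le_mul_of_nonneg_right h4 h5
    have e1 : ((L : ℝ) ^ 2 + 2 * L) * δ ^ 2 * L ^ 6 = ((L : ℝ) ^ 2 + 2 * L) * (δ ^ 2 * L ^ 6) := by
      ring
    have e2 : 3 * δ ^ 2 * (L : ℝ) ^ 8 = 3 * (L : ℝ) ^ 2 * (δ ^ 2 * L ^ 6) := by ring
    rw [e1, e2]
    exact h6
  linarith

theorem nrm_le {L : ℕ} (hL : 2 ≤ L) {δ : ℝ} (hδ : 0 ≤ δ) {c : ℕ → ℝ}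
    (hc : ∀ k, 0 ≤ c k ∧ c k ≤ 2 * (δ / L ^ 4)) : nrm L c (1 + 1 / L) ≤ 6 * δ := by
  have hL' : (2 : ℝ) ≤ L := by exact_mod_cast hL
  have h0 : 0 ≤ δ / (L : ℝ) ^ 4 := by positivity
  have hq : (0 : ℝ) < 1 + 1 / L := by positivity
  have hterm : ∀ k ∈ Finset.range L, |c k| * ∑ a ∈ Finset.range (k + 1),
      (((a : ℝ) + 1) * (1 + 1 / (L : ℝ)) ^ a) *
        ((((k - a : ℕ) : ℝ) + 1) * (1 + 1 / (L : ℝ)) ^ (k - a)) ≤
      2 * (δ / (L : ℝ) ^ 4) * ((L : ℝ) * (3 * (((L : ℝ) + 1) / 2) ^ 2)) := by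
    intro k hk
    have hk' : k < L := Finset.mem_range.1 hk
    have hkL : (k : ℝ) + 1 ≤ L := by exact_mod_cast hk'
    have h1 : ∑ a ∈ Finset.range (k + 1), (((a : ℝ) + 1) * (1 + 1 / (L : ℝ)) ^ a) *
        ((((k - a : ℕ) : ℝ) + 1) * (1 + 1 / (L : ℝ)) ^ (k - a)) ≤
        ∑ _a ∈ Finset.range (k + 1), 3 * (((L : ℝ) + 1) / 2) ^ 2 := by
      refine Finset.sum_le_sum fun a ha => ?_
      have ha' : a ≤ k := by
        have := Finset.mem_range.1 ha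
        omega
      have e1 : (((a : ℝ) + 1) * (1 + 1 / (L : ℝ)) ^ a) *
          ((((k - a : ℕ) : ℝ) + 1) * (1 + 1 / (L : ℝ)) ^ (k - a)) =
          (((a : ℝ) + 1) * (((k - a : ℕ) : ℝ) + 1)) * (1 + 1 / (L : ℝ)) ^ k := by
        have : (1 + 1 / (L : ℝ)) ^ k = (1 + 1 / (L : ℝ)) ^ a * (1 + 1 / (L : ℝ)) ^ (k - a) := by
          rw [← pow_add]
          congr 1
          omega
        rw [this]
        ring
      rw [e1, Nat.cast_sub ha']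
      have h2 := pow_le_three (L := L) (k := k) (by omega) hk'.le
      have ha0 : (0 : ℝ) ≤ a := Nat.cast_nonneg a
      have hak : (a : ℝ) ≤ k := by exact_mod_cast ha'
      have h3 : ((a : ℝ) + 1) * ((k : ℝ) - a + 1) ≤ (((L : ℝ) + 1) / 2) ^ 2 := by
        have h4 : ((a : ℝ) + 1) * ((k : ℝ) - a + 1) ≤ (((k : ℝ) + 2) / 2) ^ 2 := by
          nlinarith [sq_nonneg ((a : ℝ) + 1 - ((k : ℝ) - a + 1))]
        refine h4.trans (pow_le_pow_left₀ (by positivity) ?_ 2)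
        linarith
      have h5 : (0 : ℝ) ≤ ((a : ℝ) + 1) * ((k : ℝ) - a + 1) :=
        mul_nonneg (by linarith) (by linarith)
      calc ((a : ℝ) + 1) * ((k : ℝ) - a + 1) * (1 + 1 / (L : ℝ)) ^ k ≤
          (((L : ℝ) + 1) / 2) ^ 2 * 3 := mul_le_mul h3 h2 (by positivity) (by positivity)
        _ = 3 * (((L : ℝ) + 1) / 2) ^ 2 := by ring
    rw [Finset.sum_const, Finset.card_range, nsmul_eq_mul] at h1
    push_cast at h1
    have h2 : |c k| ≤ 2 * (δ / (L : ℝ) ^ 4) := by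
      rw [abs_of_nonneg (hc k).1]
      exact (hc k).2
    refine mul_le_mul h2 (h1.trans ?_) (Finset.sum_nonneg fun a _ => by positivity)
      (by positivity)
    exact mul_le_mul_of_nonneg_right hkL (by positivity)
  unfold nrm
  refine (Finset.sum_le_sum hterm).trans ?_
  rw [Finset.sum_const, Finset.card_range, nsmul_eq_mul]
  have e : (L : ℝ) * (2 * (δ / (L : ℝ) ^ 4) * ((L : ℝ) * (3 * (((L : ℝ) + 1) / 2) ^ 2))) =
      3 / 2 * δ * (((L : ℝ) + 1) ^ 2 / L ^ 2) := by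
    field_simp
  rw [e]
  have h1 : ((L : ℝ) + 1) ^ 2 / L ^ 2 ≤ 4 := by
    rw [div_le_iff₀ (by positivity)]
    nlinarith
  have h2 : 3 / 2 * δ * (((L : ℝ) + 1) ^ 2 / L ^ 2) ≤ 3 / 2 * δ * 4 :=
    mul_le_mul_of_nonneg_left h1 (by positivity)
  linarith

/-- Row Q. -/
theorem stQ : StQ := fun _ hL _ hδ _ hc => ⟨nrm_le hL hδ hc, cst_le hL hδ hc⟩

end Vale.Agent.P146.R2.H910.X
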