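import Vale.Agent.P146.R2.H910.Scale

/-!
# P146: lower bound for the lower tail (speed `n²`), from convexity, the variance bound and the
upper bound for the mean
-/

open MeasureTheory ProbabilityTheory Filter Topology

namespace Vale.Agent.P146.R2.H910

lemma free_zero (n : ℕ) (β : ℝ) : freeEnergy n β (fun _ => 0) = n * Real.log 2 := by
  unfold freeEnergy partitionFn
  have h : ∀ σ : Fin n → ℤˣ, Real.exp (β * hamiltonian n (fun _ => 0) σ) = 1 := by
    intro σ
    have : hamiltonian n (fun _ => 0) σ = 0 := by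
      unfold hamiltonian
      simp
    rw [this, mul_zero, Real.exp_zero]
  simp_rw [h]
  rw [Finset.sum_const, Finset.card_univ, nsmul_eq_mul, mul_one, Fintype.card_fun,
    Fintype.card_fin, Fintype.card_units_int]
  push_cast
  rw [Real.log_pow]

theorem low_core {n : ℕ} {β p s : ℝ}
    (hcv : ConvexOn ℝ Set.univ (freeEnergy n β)) (hcont : Continuous (freeEnergy n β))
    (hL2 : MemLp (freeEnergy n β) 2 (disorder n))
    (hV : Var[freeEnergy n β; disorder n] ≤ β ^ 2 * n / 2)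
    (hn : 1 ≤ n) (_hp : Real.log 2 < p)
    (hE : ∫ g, freeEnergy n β g ∂(disorder n) ≤ n * p) (hs0 : 0 < s)
    (hs : 4 * β ^ 2 ≤ s ^ 2 * n) (hs1 : s ≤ (p - Real.log 2) / 8)
    (hl : p - Real.log 2 ≤ s * n) :
    Real.exp (-(9 * s ^ 2 * (n : ℝ) ^ 2 / (p - Real.log 2) ^ 2)) ≤
      (disorder n).real {g | freeEnergy n β g ≤ n * (p - s)} := by
  have hprob : IsProbabilityMeasure (disorder n) := by unfold disorder; infer_instance
  obtain ⟨q, hq⟩ : ∃ q, q = p - Real.log 2 := ⟨_, rfl⟩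
  rw [← hq] at hs1 hl ⊢
  have hq0 : 0 < q := by linarith
  obtain ⟨δ, hδ⟩ : ∃ δ, δ = 2 * s / q := ⟨_, rfl⟩
  have hδ0 : 0 ≤ δ := by rw [hδ]; positivity
  have hδ1 : δ ≤ 1 / 4 := by
    rw [hδ, div_le_iff₀ hq0]
    linarith
  have hδq : δ * q = 2 * s := by
    rw [hδ, div_mul_cancel₀ _ hq0.ne']
  have hn1 : (1 : ℝ) ≤ n := by exact_mod_cast hn
  have hn0 : (0 : ℝ) < n := by linarith
  have hsn : 0 < s * n := mul_pos hs0 hn0
  have hA : MeasurableSet {g | freeEnergy n β g ≤ n * (p - s)} :=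
    measurableSet_le hcont.measurable measurable_const
  have hsub : {g | freeEnergy n β g ≤ n * p + s * n} ⊆
      {g | (fun k => (1 - δ) * g k) ∈ {g | freeEnergy n β g ≤ n * (p - s)}} := by
    intro g hg
    simp only [Set.mem_ofPred_eq] at hg ⊢
    have hc := hcv.2 (Set.mem_univ g) (Set.mem_univ (fun _ : Pair n => (0 : ℝ)))
      (by linarith : 0 ≤ 1 - δ) hδ0 (by ring)
    have e : (1 - δ) • g + δ • (fun _ : Pair n => (0 : ℝ)) = fun k => (1 - δ) * g k := by
      funext k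
      simp
    rw [e, free_zero] at hc
    simp only [smul_eq_mul] at hc
    have h1 : (1 - δ) * freeEnergy n β g ≤ (1 - δ) * (n * p + s * n) :=
      mul_le_mul_of_nonneg_left hg (by linarith)
    have h2 : (1 - δ) * (n * p + s * n) + δ * (n * Real.log 2) =
        n * p + s * n - n * (δ * q) - δ * (s * n) := by rw [hq]; ring
    rw [hδq] at h2
    have h3 : 0 ≤ δ * (s * n) := mul_nonneg hδ0 hsn.le
    have h4 : (n : ℝ) * (2 * s) = 2 * (s * n) := by ring
    have h5 : (n : ℝ) * (p - s) = n * p - s * n := by ring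
    rw [h5]
    linarith
  have hbad : (disorder n).real {g | freeEnergy n β g ≤ n * p + s * n}ᶜ ≤ 1 / 8 := by
    have h1 := meas_ge_le_variance_div_sq hL2 hsn
    have h2 : {g | freeEnergy n β g ≤ n * p + s * n}ᶜ ⊆
        {g | s * n ≤ |freeEnergy n β g - ∫ g, freeEnergy n β g ∂(disorder n)|} := by
      intro g hg
      simp only [Set.mem_compl_iff, Set.mem_ofPred_eq, not_le] at hg ⊢
      refine le_trans ?_ (le_abs_self _)
      linarith
    have h3 : (disorder n).real {g | s * n ≤ |freeEnergy n β g -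
        ∫ g, freeEnergy n β g ∂(disorder n)|} ≤ Var[freeEnergy n β; disorder n] / (s * n) ^ 2 := by
      rw [measureReal_def]
      exact ENNReal.toReal_le_of_le_ofReal (by positivity [variance_nonneg (freeEnergy n β) (disorder n)]) h1
    have h4 : Var[freeEnergy n β; disorder n] / (s * n) ^ 2 ≤ 1 / 8 := by
      rw [div_le_iff₀ (by positivity)]
      have h5 : (s * n) ^ 2 = s ^ 2 * n * n := by ring
      rw [h5]
      have h6 := mul_le_mul_of_nonneg_right hs hn0.le
      linarith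
    exact (measureReal_mono h2).trans (h3.trans h4)
  have hgood : 7 / 8 ≤ (disorder n).real {g | freeEnergy n β g ≤ n * p + s * n} := by
    have hm : MeasurableSet {g | freeEnergy n β g ≤ n * p + s * n} :=
      measurableSet_le hcont.measurable measurable_const
    rw [probReal_compl_eq_one_sub hm] at hbad
    linarith
  have hsc := scale_prob hδ0 hδ1 hA
  have h7 : (7 / 8 : ℝ) ≤ (disorder n).real
      {g | (fun k => (1 - δ) * g k) ∈ {g | freeEnergy n β g ≤ n * (p - s)}} :=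
    hgood.trans (measureReal_mono hsub)
  have h8 : (49 / 64 : ℝ) * Real.exp (-(2 * δ ^ 2 * (n : ℝ) ^ 2)) ≤
      (disorder n).real {g | freeEnergy n β g ≤ n * (p - s)} := by
    refine le_trans (mul_le_mul_of_nonneg_right ?_ (Real.exp_pos _).le) hsc
    calc (49 / 64 : ℝ) = (7 / 8) ^ 2 := by norm_num
      _ ≤ _ := pow_le_pow_left₀ (by norm_num) h7 2
  refine le_trans ?_ h8
  have hx : 1 ≤ (s * n / q) ^ 2 := one_le_pow₀ ((one_le_div hq0).2 hl)
  have e1 : 2 * δ ^ 2 * (n : ℝ) ^ 2 = 8 * (s * n / q) ^ 2 := by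
    rw [hδ]
    ring
  have e2 : 9 * s ^ 2 * (n : ℝ) ^ 2 / q ^ 2 = 9 * (s * n / q) ^ 2 := by
    ring
  rw [e1, e2]
  have e3 : -(9 * (s * n / q) ^ 2) = -(s * n / q) ^ 2 + -(8 * (s * n / q) ^ 2) := by ring
  rw [e3, Real.exp_add]
  refine mul_le_mul_of_nonneg_right ?_ (Real.exp_pos _).le
  calc Real.exp (-(s * n / q) ^ 2) ≤ Real.exp (-1) := Real.exp_le_exp.2 (by linarith)
    _ ≤ 49 / 64 := Real.exp_neg_one_lt_d9.le.trans (by norm_num)

/-- the same for all large `n` -/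
theorem low_eventually {β p : ℝ} (hcv : ∀ n, ConvexOn ℝ Set.univ (freeEnergy n β))
    (hcont : ∀ n, Continuous (freeEnergy n β))
    (hL2 : ∀ n, MemLp (freeEnergy n β) 2 (disorder n))
    (hV : ∀ n, Var[freeEnergy n β; disorder n] ≤ β ^ 2 * n / 2)
    (hE : ∀ n : ℕ, 1 ≤ n → ∫ g, freeEnergy n β g ∂(disorder n) ≤ n * p)
    (hp : Real.log 2 < p) :
    ∀ᶠ n : ℕ in atTop, ∀ s : ℝ, (n : ℝ) ^ (-(1 / 20) : ℝ) ≤ s → s ≤ (p - Real.log 2) / 8 →
      Real.exp (-(9 * s ^ 2 * (n : ℝ) ^ 2 / (p - Real.log 2) ^ 2)) ≤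
        (disorder n).real {g | freeEnergy n β g ≤ n * (p - s)} := by
  have t1 : Tendsto (fun n : ℕ => (n : ℝ) ^ (9 / 10 : ℝ)) atTop atTop :=
    (tendsto_rpow_atTop (by norm_num)).comp tendsto_natCast_atTop_atTop
  have t2 : Tendsto (fun n : ℕ => (n : ℝ) ^ (19 / 20 : ℝ)) atTop atTop :=
    (tendsto_rpow_atTop (by norm_num)).comp tendsto_natCast_atTop_atTop
  filter_upwards [t1.eventually_ge_atTop (4 * β ^ 2), t2.eventually_ge_atTop (p - Real.log 2),
    eventually_ge_atTop 1] with n h1 h2 hn s hs hs1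
  have hn1 : (1 : ℝ) ≤ n := by exact_mod_cast hn
  have hn0 : (0 : ℝ) < n := by linarith
  have hr0 : 0 < (n : ℝ) ^ (-(1 / 20) : ℝ) := Real.rpow_pos_of_pos hn0 _
  have hs0 : 0 < s := hr0.trans_le hs
  refine low_core (hcv n) (hcont n) (hL2 n) (hV n) hn hp (hE n hn) hs0 ?_ hs1 ?_
  · refine h1.trans ?_
    have e : (n : ℝ) ^ (9 / 10 : ℝ) = ((n : ℝ) ^ (-(1 / 20) : ℝ)) ^ 2 * n := by
      rw [← Real.rpow_natCast, ← Real.rpow_mul hn0.le]
      nth_rw 3 [← Real.rpow_one (n : ℝ)]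
      rw [← Real.rpow_add hn0]
      norm_num
    rw [e]
    exact mul_le_mul_of_nonneg_right (pow_le_pow_left₀ hr0.le hs 2) hn0.le
  · refine h2.trans ?_
    have e : (n : ℝ) ^ (19 / 20 : ℝ) = (n : ℝ) ^ (-(1 / 20) : ℝ) * n := by
      nth_rw 3 [← Real.rpow_one (n : ℝ)]
      rw [← Real.rpow_add hn0]
      norm_num
    rw [e]
    exact mul_le_mul_of_nonneg_right hs hn0.le

end Vale.Agent.P146.R2.H910
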