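import Vale.Agent.P146.Defs

/-!
# P146: scaling of the disorder
-/

open MeasureTheory ProbabilityTheory

namespace Vale.Agent.P146.R2.H910

/-- density of `N(0, a²)` with respect to `N(0, 1)` -/
noncomputable def rho (a x : ℝ) : ℝ := a⁻¹ * Real.exp (-(((a ^ 2)⁻¹ - 1) / 2 * x ^ 2))

variable {a : ℝ}

lemma rho_nonneg (h0 : 0 < a) (x : ℝ) : 0 ≤ rho a x := by unfold rho; positivity

lemma rho_cont (a : ℝ) : Continuous (rho a) := by unfold rho; fun_prop

lemma inv_sq_ge (h0 : 0 < a) (h1 : a ≤ 1) : 1 ≤ (a ^ 2)⁻¹ :=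
  (one_le_inv₀ (by positivity)).2 (pow_le_one₀ h0.le h1)

lemma rho_le (h0 : 0 < a) (h1 : a ≤ 1) (x : ℝ) : rho a x ≤ a⁻¹ := by
  unfold rho
  refine mul_le_of_le_one_right (inv_nonneg.2 h0.le) (Real.exp_le_one_iff.2 ?_)
  have := inv_sq_ge h0 h1
  have h2 : 0 ≤ ((a ^ 2)⁻¹ - 1) / 2 * x ^ 2 := mul_nonneg (by linarith) (sq_nonneg x)
  linarith

lemma gauss_scale (h0 : 0 < a) : (gaussianReal 0 1).map (fun x => a * x)
    = (gaussianReal 0 1).withDensity (fun x => ENNReal.ofReal (rho a x)) := by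
  have hv : NNReal.mk (a ^ 2) (sq_nonneg a) * 1 ≠ 0 := by
    intro h
    have h2 : a ^ 2 * 1 = 0 := congrArg (fun x : NNReal => (x : ℝ)) h
    have h3 : 0 < a ^ 2 := by positivity
    linarith
  rw [gaussianReal_map_const_mul, gaussianReal_of_var_ne_zero _ hv,
    gaussianReal_of_var_ne_zero _ one_ne_zero,
    ← withDensity_mul _ (measurable_gaussianPDF 0 1)
      (((rho_cont a).measurable).ennreal_ofReal)]
  congr 1
  funext x
  simp only [Pi.mul_apply, gaussianPDF_def]
  rw [← ENNReal.ofReal_mul (gaussianPDFReal_nonneg _ _ _)]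
  congr 1
  simp only [gaussianPDFReal_def, rho, NNReal.coe_one, NNReal.coe_mk, mul_one, mul_zero,
    sub_zero]
  have e1 : Real.sqrt (2 * Real.pi * a ^ 2) = a * Real.sqrt (2 * Real.pi) := by
    rw [mul_comm (2 * Real.pi), Real.sqrt_mul (sq_nonneg a), Real.sqrt_sq h0.le]
  have e2 : Real.exp (-x ^ 2 / (2 * a ^ 2)) =
      Real.exp (-x ^ 2 / 2) * Real.exp (-(((a ^ 2)⁻¹ - 1) / 2 * x ^ 2)) := by
    rw [← Real.exp_add]
    congr 1
    have : a ^ 2 ≠ 0 := by positivity
    field_simp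
    ring
  rw [e1, e2, mul_inv]
  ring

lemma rho_integrable (h0 : 0 < a) (h1 : a ≤ 1) (k : ℕ) :
    Integrable (fun x => rho a x ^ k) (gaussianReal 0 1) := by
  refine Integrable.of_bound ((rho_cont a).pow k).aestronglyMeasurable (a⁻¹ ^ k)
    (Filter.Eventually.of_forall fun x => ?_)
  rw [Real.norm_of_nonneg (pow_nonneg (rho_nonneg h0 x) k)]
  exact pow_le_pow_left₀ (rho_nonneg h0 x) (rho_le h0 h1 x) k

lemma rho_sq (h0 : 0 < a) (h1 : a ≤ 1) :
    ∫ x, rho a x ^ 2 ∂(gaussianReal 0 1) = (Real.sqrt (1 - (1 - a ^ 2) ^ 2))⁻¹ := by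
  rw [integral_gaussianReal_eq_integral_smul one_ne_zero]
  have hb := inv_sq_ge h0 h1
  have e : ∀ x : ℝ, gaussianPDFReal 0 1 x • rho a x ^ 2 =
      (Real.sqrt (2 * Real.pi))⁻¹ * (a ^ 2)⁻¹ *
        Real.exp (-((a ^ 2)⁻¹ - 1 / 2) * x ^ 2) := by
    intro x
    simp only [gaussianPDFReal_def, rho, smul_eq_mul, NNReal.coe_one, mul_one, sub_zero]
    rw [mul_pow, ← Real.exp_nat_mul, inv_pow]
    have : Real.exp (-((a ^ 2)⁻¹ - 1 / 2) * x ^ 2) = Real.exp (-x ^ 2 / 2) *
        Real.exp ((2 : ℕ) * -(((a ^ 2)⁻¹ - 1) / 2 * x ^ 2)) := by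
      rw [← Real.exp_add]
      congr 1
      push_cast
      ring
    rw [this]
    ring
  simp_rw [e]
  rw [integral_const_mul, integral_gaussian]
  have hc : 0 < (a ^ 2)⁻¹ - 1 / 2 := by linarith
  have ha2 : 0 < a ^ 2 := by positivity
  rw [Real.sqrt_div Real.pi_pos.le]
  have e3 : 1 - (1 - a ^ 2) ^ 2 = (a ^ 2) ^ 2 * (2 * ((a ^ 2)⁻¹ - 1 / 2)) := by
    field_simp
    ring
  rw [e3, Real.sqrt_mul (sq_nonneg _), Real.sqrt_sq ha2.le, Real.sqrt_mul (by norm_num),
    Real.sqrt_mul (by norm_num)]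
  have h4 : Real.sqrt Real.pi ≠ 0 := (Real.sqrt_pos.2 Real.pi_pos).ne'
  have h5 : Real.sqrt ((a ^ 2)⁻¹ - 1 / 2) ≠ 0 := (Real.sqrt_pos.2 hc).ne'
  have h6 : Real.sqrt (2 : ℝ) ≠ 0 := by positivity
  field_simp

lemma rho_sq_le (h0 : 0 < a) (h1 : a ≤ 1) (h2 : (1 - a ^ 2) ^ 2 ≤ 1 / 2) :
    ∫ x, rho a x ^ 2 ∂(gaussianReal 0 1) ≤ Real.exp ((1 - a ^ 2) ^ 2) := by
  rw [rho_sq h0 h1]
  set y := (1 - a ^ 2) ^ 2 with hy
  have hy0 : 0 ≤ y := sq_nonneg _
  have h3 : 1 + 2 * y + (2 * y) ^ 2 / 2 ≤ Real.exp (2 * y) :=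
    Real.quadratic_le_exp_of_nonneg (by positivity)
  have h4 : 1 ≤ Real.exp (2 * y) * (1 - y) := by
    have h5 : 0 ≤ 1 - y := by linarith
    have h6 := mul_le_mul_of_nonneg_right h3 h5
    nlinarith [mul_nonneg hy0 hy0, mul_nonneg (mul_nonneg hy0 hy0) hy0]
  have h7 : 0 < 1 - y := by linarith
  rw [inv_le_comm₀ (Real.sqrt_pos.2 h7) (Real.exp_pos _), ← Real.exp_neg]
  refine Real.le_sqrt_of_sq_le ?_
  rw [← Real.exp_nat_mul]
  have e : Real.exp ((2 : ℕ) * -y) = (Real.exp (2 * y))⁻¹ := by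
    rw [← Real.exp_neg]
    congr 1
    push_cast
    ring
  rw [e, inv_le_iff_one_le_mul₀ (Real.exp_pos _), mul_comm]
  exact h4

variable {ι : Type*} [Fintype ι]

lemma pi_scale (h0 : 0 < a) (h1 : a ≤ 1) :
    (Measure.pi fun _ : ι => gaussianReal 0 1).map (fun J i => a * J i)
      = (Measure.pi fun _ : ι => gaussianReal 0 1).withDensity
        (fun J => ENNReal.ofReal (∏ i, rho a (J i))) := by
  have hm1 : ∀ i : ι, IsProbabilityMeasure ((gaussianReal 0 1).map (fun x : ℝ => a * x)) := by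
    intro i
    exact Measure.isProbabilityMeasure_map (by fun_prop)
  have hsf : ∀ i : ι, SigmaFinite ((gaussianReal 0 1).map (fun x : ℝ => a * x)) := fun i => by
    have := hm1 i
    infer_instance
  rw [Measure.pi_map_pi (μ := fun _ : ι => gaussianReal 0 1) (f := fun _ x => a * x)
    (fun i => by fun_prop)]
  apply Measure.pi_eq
  intro s hs
  have hbox : MeasurableSet (Set.univ.pi s) := MeasurableSet.univ_pi hs
  rw [withDensity_apply _ hbox]
  have hint : Integrable (fun J : ι → ℝ => ∏ i, rho a (J i))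
      (Measure.pi fun _ : ι => gaussianReal 0 1) := by
    apply Integrable.fintype_prod (f := fun _ x => rho a x)
    intro i
    simpa using rho_integrable h0 h1 1
  have hnn : ∀ J : ι → ℝ, 0 ≤ ∏ i, rho a (J i) := fun J =>
    Finset.prod_nonneg fun i _ => rho_nonneg h0 _
  rw [← ofReal_integral_eq_lintegral_ofReal hint.integrableOn
    (Filter.Eventually.of_forall hnn)]
  rw [← integral_indicator hbox]
  have hind : (Set.univ.pi s).indicator (fun J : ι → ℝ => ∏ i, rho a (J i))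
      = fun J => ∏ i, (s i).indicator (fun x => rho a x) (J i) := by
    funext J
    by_cases hJ : J ∈ Set.univ.pi s
    · rw [Set.indicator_of_mem hJ]
      apply Finset.prod_congr rfl
      intro i _
      rw [Set.indicator_of_mem (hJ i (Set.mem_univ i))]
    · rw [Set.indicator_of_notMem hJ]
      simp only [Set.mem_univ_pi, not_forall] at hJ
      obtain ⟨i, hi⟩ := hJ
      symm
      apply Finset.prod_eq_zero (Finset.mem_univ i)
      rw [Set.indicator_of_notMem hi]
  rw [hind, integral_fintype_prod_eq_prod (𝕜 := ℝ)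
    (fun (i : ι) (x : ℝ) => (s i).indicator (fun x => rho a x) x)
    (μ := fun _ => gaussianReal 0 1)]
  rw [ENNReal.ofReal_prod_of_nonneg]
  · apply Finset.prod_congr rfl
    intro i _
    rw [gauss_scale h0, withDensity_apply _ (hs i), integral_indicator (hs i)]
    rw [ofReal_integral_eq_lintegral_ofReal]
    · have h2 : Integrable (fun x => rho a x) (gaussianReal 0 1) := by
        simpa using rho_integrable h0 h1 1
      exact h2.integrableOn
    · exact Filter.Eventually.of_forall fun x => rho_nonneg h0 x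
  · intro i _
    apply integral_nonneg
    intro x
    apply Set.indicator_nonneg
    intro x _
    exact rho_nonneg h0 x

/-- Cauchy-Schwarz for the scaled Gaussian law -/
lemma pi_scale_prob (h0 : 0 < a) (h1 : a ≤ 1) (h2 : (1 - a ^ 2) ^ 2 ≤ 1 / 2)
    {A : Set (ι → ℝ)} (hA : MeasurableSet A) :
    ((Measure.pi fun _ : ι => gaussianReal 0 1).real {g | (fun p => a * g p) ∈ A}) ^ 2 ≤
      Real.exp (Fintype.card ι * (1 - a ^ 2) ^ 2) *
        (Measure.pi fun _ : ι => gaussianReal 0 1).real A := by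
  set μ := (Measure.pi fun _ : ι => gaussianReal 0 1) with hμ
  have hmeas : Measurable (fun (J : ι → ℝ) (i : ι) => a * J i) := by fun_prop
  set R : (ι → ℝ) → ℝ := fun J => ∏ i, rho a (J i) with hR
  have hRn : ∀ J, 0 ≤ R J := fun J => Finset.prod_nonneg fun i _ => rho_nonneg h0 _
  have hRi : Integrable R μ := by
    apply Integrable.fintype_prod (f := fun _ x => rho a x)
    intro i
    simpa using rho_integrable h0 h1 1
  have hR2 : ∀ J, R J ^ 2 = ∏ i, rho a (J i) ^ 2 := fun J => by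
    rw [hR, Finset.prod_pow]
  have hR2i : Integrable (fun J => R J ^ 2) μ := by
    simp_rw [hR2]
    apply Integrable.fintype_prod (f := fun _ x => rho a x ^ 2)
    intro i
    exact rho_integrable h0 h1 2
  have hQ : ∫ J, R J ^ 2 ∂μ ≤ Real.exp (Fintype.card ι * (1 - a ^ 2) ^ 2) := by
    simp_rw [hR2]
    rw [hμ, integral_fintype_prod_eq_prod (𝕜 := ℝ) (fun (_ : ι) (x : ℝ) => rho a x ^ 2)
      (μ := fun _ => gaussianReal 0 1), Finset.prod_const, Finset.card_univ, Real.exp_nat_mul]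
    exact pow_le_pow_left₀ (integral_nonneg fun x => sq_nonneg _) (rho_sq_le h0 h1 h2) _
  have hI : μ.real {g | (fun p => a * g p) ∈ A} = ∫ J in A, R J ∂μ := by
    have e1 : μ.real {g | (fun p => a * g p) ∈ A} = (μ.map (fun J i => a * J i)).real A := by
      rw [measureReal_def, measureReal_def, Measure.map_apply hmeas hA]
      rfl
    rw [e1, hμ, pi_scale h0 h1, measureReal_def, withDensity_apply _ hA,
      ← ofReal_integral_eq_lintegral_ofReal hRi.integrableOn (Filter.Eventually.of_forall hRn),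
      ENNReal.toReal_ofReal (integral_nonneg hRn)]
  rw [hI]
  set I := ∫ J in A, R J ∂μ with hIdef
  set m := μ.real A with hm
  have hm0 : 0 ≤ m := measureReal_nonneg
  have hI0 : 0 ≤ I := integral_nonneg hRn
  set Q := ∫ J, R J ^ 2 ∂μ with hQdef
  have key : I ^ 2 ≤ Q * m := by
    rcases eq_or_lt_of_le hm0 with h | h
    · have hA0 : μ A = 0 := by
        have : (μ A).toReal = 0 := by rw [← measureReal_def, ← hm, ← h]
        rcases (ENNReal.toReal_eq_zero_iff _).1 this with h | h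
        · exact h
        · exact absurd h (measure_ne_top _ _)
      have : I = 0 := by
        rw [hIdef, Measure.restrict_eq_zero.2 hA0, integral_zero_measure]
      rw [this, ← h]
      simp
    · have h3 : 0 ≤ ∫ J, (m * R J - I * A.indicator 1 J) ^ 2 ∂μ :=
        integral_nonneg fun J => sq_nonneg _
      have e1 : ∀ J, (m * R J - I * A.indicator 1 J) ^ 2 =
          m ^ 2 * R J ^ 2 - 2 * m * I * A.indicator R J + I ^ 2 * A.indicator 1 J := by
        intro J
        by_cases hJ : J ∈ A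
        · rw [Set.indicator_of_mem hJ, Set.indicator_of_mem hJ, Pi.one_apply]
          ring
        · rw [Set.indicator_of_notMem hJ, Set.indicator_of_notMem hJ]
          ring
      simp_rw [e1] at h3
      have i1 : Integrable (fun J => m ^ 2 * R J ^ 2) μ := hR2i.const_mul _
      have i2 : Integrable (fun J => 2 * m * I * A.indicator R J) μ :=
        (hRi.indicator hA).const_mul _
      have i3 : Integrable (fun J => I ^ 2 * A.indicator (1 : (ι → ℝ) → ℝ) J) μ :=
        ((integrable_const (1 : ℝ)).indicator hA).const_mul _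
      have a1 := integral_add (μ := μ) (i1.sub i2) i3
      have a2 := integral_sub (μ := μ) i1 i2
      simp only [Pi.sub_apply] at a1
      rw [a1, a2, integral_const_mul, integral_const_mul, integral_const_mul,
        integral_indicator hA, integral_indicator_one hA, ← hIdef, ← hQdef, ← hm] at h3
      have h4 : 0 ≤ m * (Q * m - I ^ 2) := by nlinarith
      have h5 := nonneg_of_mul_nonneg_right h4 h
      linarith
  exact key.trans (mul_le_mul_of_nonneg_right hQ hm0)

lemma card_pair_le (n : ℕ) : (Fintype.card (Pair n) : ℝ) ≤ (n : ℝ) ^ 2 / 2 := by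
  have h1 : Fintype.card (Pair n) + Fintype.card (Pair n) ≤ n ^ 2 := by
    have h2 : Fintype.card (Pair n ⊕ Pair n) ≤ Fintype.card (Fin n × Fin n) := by
      refine Fintype.card_le_of_injective
        (fun q : Pair n ⊕ Pair n => Sum.elim (fun p => p.1) (fun p => (p.1.2, p.1.1)) q) ?_
      rintro (p | p) (q | q) hpq
      · simp only [Sum.elim_inl] at hpq
        rw [Subtype.ext hpq]
      · simp only [Sum.elim_inl, Sum.elim_inr] at hpq
        have h3 := p.2
        have h4 := q.2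
        rw [hpq] at h3
        exact absurd h3 (not_lt.2 h4.le)
      · simp only [Sum.elim_inl, Sum.elim_inr] at hpq
        have h3 := p.2
        have h4 := q.2
        rw [← hpq] at h4
        exact absurd h4 (not_lt.2 h3.le)
      · simp only [Sum.elim_inr, Prod.mk.injEq] at hpq
        rw [Subtype.ext (Prod.ext hpq.2 hpq.1)]
    rw [Fintype.card_sum, Fintype.card_prod, Fintype.card_fin] at h2
    rw [sq]
    exact h2
  have h5 : ((Fintype.card (Pair n) + Fintype.card (Pair n) : ℕ) : ℝ) ≤ ((n ^ 2 : ℕ) : ℝ) := by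
    exact_mod_cast h1
  push_cast at h5
  linarith only [h5]

/-- scaling the disorder by `1 - δ` -/
theorem scale_prob {n : ℕ} {δ : ℝ} (h0 : 0 ≤ δ) (h1 : δ ≤ 1 / 4) {A : Set (Pair n → ℝ)}
    (hA : MeasurableSet A) :
    ((disorder n).real {g | (fun p => (1 - δ) * g p) ∈ A}) ^ 2 *
      Real.exp (-(2 * δ ^ 2 * (n : ℝ) ^ 2)) ≤ (disorder n).real A := by
  have hk : (1 - (1 - δ) ^ 2) ^ 2 ≤ 4 * δ ^ 2 := by
    have e : 1 - (1 - δ) ^ 2 = δ * (2 - δ) := by ring
    rw [e, mul_pow]
    have : (2 - δ) ^ 2 ≤ 4 := by nlinarith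
    nlinarith [mul_nonneg (sq_nonneg δ) (sub_nonneg.2 this)]
  have hk2 : (1 - (1 - δ) ^ 2) ^ 2 ≤ 1 / 2 := by nlinarith
  have h := pi_scale_prob (by linarith : (0 : ℝ) < 1 - δ) (by linarith) hk2 hA
  have hc : (Fintype.card (Pair n) : ℝ) * (1 - (1 - δ) ^ 2) ^ 2 ≤ 2 * δ ^ 2 * (n : ℝ) ^ 2 := by
    calc (Fintype.card (Pair n) : ℝ) * (1 - (1 - δ) ^ 2) ^ 2 ≤ ((n : ℝ) ^ 2 / 2) * (4 * δ ^ 2) :=
          mul_le_mul (card_pair_le n) hk (sq_nonneg _) (by positivity)
      _ = _ := by ring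
  have hA0 : 0 ≤ (disorder n).real A := measureReal_nonneg
  calc ((disorder n).real {g | (fun p => (1 - δ) * g p) ∈ A}) ^ 2 *
      Real.exp (-(2 * δ ^ 2 * (n : ℝ) ^ 2))
      ≤ (Real.exp (2 * δ ^ 2 * (n : ℝ) ^ 2) * (disorder n).real A) *
        Real.exp (-(2 * δ ^ 2 * (n : ℝ) ^ 2)) := by
        refine mul_le_mul_of_nonneg_right ?_ (Real.exp_pos _).le
        exact h.trans (mul_le_mul_of_nonneg_right (Real.exp_le_exp.2 hc) hA0)
    _ = (disorder n).real A := by
        rw [mul_right_comm, ← Real.exp_add, add_neg_cancel, Real.exp_zero, one_mul]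

end Vale.Agent.P146.R2.H910
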